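import Vale.Agent.Lib.P125.Renorm

/-!
# P125: nontrivial Markov type implies superreflexivity

Every real normed space with Markov type `p` for some `p > 1` admits an equivalent uniformly
convex norm, i.e. is superreflexive.
-/

namespace Vale.Agent.Results.P125.MarkovTypeSuperreflexive

/-- `X` has Markov type `p`: there is a constant `K` such that for every finite stationary
reversible Markov chain (state space `S`, stationary distribution `π`, transition matrix `P`),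
every `f : S → X` and every time `t ≥ 1`,
`E ‖f (Z_t) - f (Z_0)‖ ^ p ≤ K ^ p * t * E ‖f (Z_1) - f (Z_0)‖ ^ p`. -/
def HasMarkovType (X : Type*) [NormedAddCommGroup X] [NormedSpace ℝ X] (p : ℝ) : Prop :=
  ∃ K : ℝ, 0 ≤ K ∧ ∀ (S : Type) [Fintype S] [DecidableEq S] (π : S → ℝ) (P : Matrix S S ℝ),
    (∀ i, 0 ≤ π i) → ∑ i, π i = 1 → (∀ i j, 0 ≤ P i j) → (∀ i, ∑ j, P i j = 1) →
    (∀ i j, π i * P i j = π j * P j i) →
    ∀ (f : S → X) (t : ℕ), 1 ≤ t →
      ∑ i, ∑ j, π i * (P ^ t) i j * ‖f j - f i‖ ^ p ≤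
        K ^ p * t * ∑ i, ∑ j, π i * P i j * ‖f j - f i‖ ^ p

/-- `N` is a norm on `X` equivalent to the given one. -/
structure IsEquivalentNorm {X : Type*} [NormedAddCommGroup X] [NormedSpace ℝ X] (N : X → ℝ) :
    Prop where
  add_le : ∀ x y, N (x + y) ≤ N x + N y
  smul : ∀ (c : ℝ) x, N (c • x) = |c| * N x
  equiv : ∃ a b : ℝ, 0 < a ∧ 0 < b ∧ ∀ x, a * ‖x‖ ≤ N x ∧ N x ≤ b * ‖x‖

/-- uniform convexity of a norm `N` -/
def IsUniformlyConvex {X : Type*} [NormedAddCommGroup X] [NormedSpace ℝ X] (N : X → ℝ) : Prop :=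
  ∀ ε : ℝ, 0 < ε → ε ≤ 2 → ∃ δ : ℝ, 0 < δ ∧ ∀ x y : X, N x ≤ 1 → N y ≤ 1 → ε ≤ N (x - y) →
    N ((1 / 2 : ℝ) • (x + y)) ≤ 1 - δ

/-- superreflexivity: existence of an equivalent uniformly convex norm -/
def IsSuperreflexive (X : Type*) [NormedAddCommGroup X] [NormedSpace ℝ X] : Prop :=
  ∃ N : X → ℝ, IsEquivalentNorm N ∧ IsUniformlyConvex N

theorem result (X : Type*) [NormedAddCommGroup X] [NormedSpace ℝ X] (p : ℝ) (hp : 1 < p)
    (h : HasMarkovType X p) : IsSuperreflexive X := by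
  obtain ⟨K, hK, hX⟩ := h
  obtain ⟨N, ⟨a, b, ha, hb, hab⟩, hN⟩ :=
    Vale.Agent.P125.exists_uniformly_convex (X := X) p K hp hK hX
  refine ⟨fun x => N x, ⟨fun x y => map_add_le_add N x y, fun c x => ?_, a, b, ha, hb, hab⟩, ?_⟩
  · show N (c • x) = |c| * N x
    rw [map_smul_eq_mul, Real.norm_eq_abs]
  · intro ε h0 _
    exact hN ε h0

end Vale.Agent.Results.P125.MarkovTypeSuperreflexive
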